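import Vale.Agent.P223.H441.Pin
import Mathlib.Analysis.InnerProductSpace.ProdL2

/-! The double of a Clifford module. -/

namespace Vale.Agent.P223.H887

open Vale.Agent.P223.H566 Vale.Agent.P223.H Vale.Agent.P223.H441
open scoped ContDiff Topology Matrix InnerProductSpace

section blk
variable {V : Type} [NormedAddCommGroup V] [InnerProductSpace ℂ V]

/-- the double -/
abbrev Db (V : Type) := WithLp 2 (V × V)

/-- block operators -/
noncomputable def blk (A B C D : V →L[ℂ] V) : Db V →L[ℂ] Db V :=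
  ((WithLp.prodContinuousLinearEquiv 2 ℂ V V).symm : V × V →L[ℂ] Db V).comp
    ((A.comp (WithLp.fstL 2 ℂ V V) + B.comp (WithLp.sndL 2 ℂ V V)).prod
      (C.comp (WithLp.fstL 2 ℂ V V) + D.comp (WithLp.sndL 2 ℂ V V)))

theorem blk_fst (A B C D : V →L[ℂ] V) (x : Db V) : (blk A B C D x).fst = A x.fst + B x.snd := rfl

theorem blk_snd (A B C D : V →L[ℂ] V) (x : Db V) : (blk A B C D x).snd = C x.fst + D x.snd := rfl

omit [NormedAddCommGroup V] [InnerProductSpace ℂ V] in
theorem db_ext {x y : Db V} (h1 : x.fst = y.fst) (h2 : x.snd = y.snd) : x = y :=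
  (WithLp.equiv 2 (V × V)).injective (Prod.ext h1 h2)

theorem blk_mul (A B C D A' B' C' D' : V →L[ℂ] V) : blk A B C D * blk A' B' C' D' =
    blk (A * A' + B * C') (A * B' + B * D') (C * A' + D * C') (C * B' + D * D') := by
  ext x
  refine db_ext ?_ ?_
  · change A (A' x.fst + B' x.snd) + B (C' x.fst + D' x.snd) =
      (A (A' x.fst) + B (C' x.fst)) + (A (B' x.snd) + B (D' x.snd))
    rw [map_add, map_add]; abel
  · change C (A' x.fst + B' x.snd) + D (C' x.fst + D' x.snd) =
      (C (A' x.fst) + D (C' x.fst)) + (C (B' x.snd) + D (D' x.snd))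
    rw [map_add, map_add]; abel

theorem blk_add (A B C D A' B' C' D' : V →L[ℂ] V) : blk A B C D + blk A' B' C' D' =
    blk (A + A') (B + B') (C + C') (D + D') := by
  ext x
  refine db_ext ?_ ?_
  · change (A x.fst + B x.snd) + (A' x.fst + B' x.snd) = (A x.fst + A' x.fst) + (B x.snd + B' x.snd)
    abel
  · change (C x.fst + D x.snd) + (C' x.fst + D' x.snd) = (C x.fst + C' x.fst) + (D x.snd + D' x.snd)
    abel

theorem blk_smul (r : ℝ) (A B C D : V →L[ℂ] V) :
    r • blk A B C D = blk (r • A) (r • B) (r • C) (r • D) := by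
  ext x
  refine db_ext ?_ ?_
  · change r • (A x.fst + B x.snd) = r • A x.fst + r • B x.snd
    rw [smul_add]
  · change r • (C x.fst + D x.snd) = r • C x.fst + r • D x.snd
    rw [smul_add]

theorem blk_one : blk (1 : V →L[ℂ] V) 0 0 1 = 1 := by
  ext x
  refine db_ext ?_ ?_
  · change x.fst + 0 = x.fst
    rw [add_zero]
  · change 0 + x.snd = x.snd
    rw [zero_add]

theorem blk_zero : blk (0 : V →L[ℂ] V) 0 0 0 = 0 := by
  ext x
  refine db_ext ?_ ?_
  · change (0 : V) + 0 = 0
    rw [add_zero]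
  · change (0 : V) + 0 = 0
    rw [add_zero]

theorem blk_inner (A B C D : V →L[ℂ] V) (x y : Db V) :
    ⟪blk A B C D x, y⟫_ℂ = ⟪A x.fst + B x.snd, y.fst⟫_ℂ + ⟪C x.fst + D x.snd, y.snd⟫_ℂ := rfl

theorem inner_blk (A B C D : V →L[ℂ] V) (x y : Db V) :
    ⟪x, blk A B C D y⟫_ℂ = ⟪x.fst, A y.fst + B y.snd⟫_ℂ + ⟪x.snd, C y.fst + D y.snd⟫_ℂ := rfl

/-- diagonal operators -/
noncomputable def dg (A : V →L[ℂ] V) : Db V →L[ℂ] Db V := blk A 0 0 A

/-- off diagonal operators -/
noncomputable def od (A : V →L[ℂ] V) : Db V →L[ℂ] Db V := blk 0 A A 0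

/-- the new Clifford generator -/
noncomputable def ta' : Db V →L[ℂ] Db V := blk 1 0 0 (-1)

theorem dg_mul (A B : V →L[ℂ] V) : dg A * dg B = dg (A * B) := by
  unfold dg; rw [blk_mul]; simp

theorem od_mul (A B : V →L[ℂ] V) : od A * od B = dg (A * B) := by
  unfold od dg; rw [blk_mul]; simp

theorem od_mul_dg (A B : V →L[ℂ] V) : od A * dg B = od (A * B) := by
  unfold od dg; rw [blk_mul]; simp

theorem dg_mul_od (A B : V →L[ℂ] V) : dg A * od B = od (A * B) := by
  unfold od dg; rw [blk_mul]; simp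

theorem dg_ta (A : V →L[ℂ] V) : dg A * ta' = ta' * dg A := by
  unfold dg ta'; rw [blk_mul, blk_mul]; simp

theorem od_ta (A : V →L[ℂ] V) : od A * ta' + ta' * od A = 0 := by
  unfold od ta'; rw [blk_mul, blk_mul, blk_add, ← blk_zero]; simp

theorem ta_ta : ta' * ta' = (1 : Db V →L[ℂ] Db V) := by
  unfold ta'; rw [blk_mul, ← blk_one]; simp

theorem dg_one : dg (1 : V →L[ℂ] V) = 1 := blk_one

theorem dg_add (A B : V →L[ℂ] V) : dg A + dg B = dg (A + B) := by
  unfold dg; rw [blk_add]; simp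

theorem od_add (A B : V →L[ℂ] V) : od A + od B = od (A + B) := by
  unfold od; rw [blk_add]; simp

theorem dg_smul (r : ℝ) (A : V →L[ℂ] V) : r • dg A = dg (r • A) := by
  unfold dg; rw [blk_smul]; simp

theorem od_smul (r : ℝ) (A : V →L[ℂ] V) : r • od A = od (r • A) := by
  unfold od; rw [blk_smul]; simp

theorem dg_neg (A : V →L[ℂ] V) : -dg A = dg (-A) := by
  ext x
  refine db_ext ?_ ?_
  · change -(A x.fst + (0 : V)) = -(A x.fst) + (0 : V)
    rw [add_zero, add_zero]
  · change -((0 : V) + A x.snd) = (0 : V) + -(A x.snd)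
    rw [zero_add, zero_add]

theorem od_zero : od (0 : V →L[ℂ] V) = 0 := by unfold od; exact blk_zero

theorem dg_zero : dg (0 : V →L[ℂ] V) = 0 := by unfold dg; exact blk_zero

theorem od_sum {ι : Type*} (s : Finset ι) (f : ι → V →L[ℂ] V) :
    od (∑ i ∈ s, f i) = ∑ i ∈ s, od (f i) := by
  classical
  induction s using Finset.induction_on with
  | empty => simp [od_zero]
  | insert a s ha ih => rw [Finset.sum_insert ha, Finset.sum_insert ha, ← od_add, ih]

theorem dg_two : dg (2 : V →L[ℂ] V) = 2 := by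
  have h : (2 : V →L[ℂ] V) = 1 + 1 := one_add_one_eq_two.symm
  rw [h, ← dg_add, dg_one]
  exact one_add_one_eq_two

/-- compression to the first summand -/
noncomputable def cpL : (Db V →L[ℂ] Db V) →L[ℂ] (V →L[ℂ] V) :=
  (ContinuousLinearMap.compL ℂ V (Db V) V (WithLp.fstL 2 ℂ V V)).comp
    ((ContinuousLinearMap.compL ℂ V (Db V) (Db V)).flip
      (((WithLp.prodContinuousLinearEquiv 2 ℂ V V).symm : V × V →L[ℂ] Db V).comp
        (ContinuousLinearMap.inl ℂ V V)))

theorem cpL_apply (T : Db V →L[ℂ] Db V) (v : V) : cpL T v = (T (WithLp.toLp 2 (v, 0))).fst := rfl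

theorem cd_cmp {n : ℕ} {V₁ : Type} [NormedAddCommGroup V₁] [InnerProductSpace ℂ V₁]
    (i : V →L[ℂ] V₁) (p : V₁ →L[ℂ] V) {f : E n → V₁ →L[ℂ] V₁} {y : E n}
    (hf : ContDiffAt ℝ ∞ f y) : ContDiffAt ℝ ∞ (fun z => p.comp ((f z).comp i)) y := by
  have h1 : ContDiff ℝ ∞ fun T : V₁ →L[ℂ] V₁ => p.comp (T.comp i) :=
    (((ContinuousLinearMap.compL ℂ V V₁ V p).comp
      ((ContinuousLinearMap.compL ℂ V V₁ V₁).flip i)).restrictScalars ℝ).contDiff
  exact h1.contDiffAt.comp y hf

theorem cd_cpL {n : ℕ} {f : E n → Db V →L[ℂ] Db V} {y : E n} (hf : ContDiffAt ℝ ∞ f y) :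
    ContDiffAt ℝ ∞ (fun z => cpL (f z)) y :=
  cd_cmp (((WithLp.prodContinuousLinearEquiv 2 ℂ V V).symm : V × V →L[ℂ] Db V).comp
        (ContinuousLinearMap.inl ℂ V V)) (WithLp.fstL 2 ℂ V V) hf

theorem cpL_dg (A : V →L[ℂ] V) : cpL (dg A) = A := by
  ext v
  rw [cpL_apply, dg, blk_fst]
  change A v + (0 : V) = A v
  rw [add_zero]

end blk

section cliff
variable {n : ℕ} {V : Type} [NormedAddCommGroup V] [InnerProductSpace ℂ V] (K : Cliff n V)

/-- the Clifford module in dimension `n + 1` -/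
noncomputable def dbK : Cliff (n + 1) (Db V) where
  c := Fin.lastCases ta' fun a => od (K.c a)
  symm a v w := by
    refine Fin.lastCases ?_ (fun a => ?_) a
    · simp only [Fin.lastCases_last]
      rw [ta', blk_inner, inner_blk]
      simp
    · simp only [Fin.lastCases_castSucc]
      rw [od, blk_inner, inner_blk]
      simp only [zero_apply, zero_add, add_zero]
      rw [K.symm, K.symm, add_comm]
  rel a b := by
    refine Fin.lastCases ?_ (fun a => ?_) a <;> refine Fin.lastCases ?_ (fun b => ?_) b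
    · simp only [Fin.lastCases_last, if_true]
      rw [ta_ta, one_add_one_eq_two]
    · simp only [Fin.lastCases_last, Fin.lastCases_castSucc]
      rw [add_comm, od_ta, if_neg (Fin.castSucc_ne_last b).symm]
    · simp only [Fin.lastCases_last, Fin.lastCases_castSucc]
      rw [od_ta, if_neg (Fin.castSucc_ne_last a)]
    · simp only [Fin.lastCases_castSucc]
      rw [od_mul, od_mul, dg_add, K.rel]
      by_cases h : a = b
      · rw [if_pos h, if_pos (by rw [h]), dg_two]
      · rw [if_neg h, if_neg (fun h' => h (Fin.castSucc_injective _ h')), dg_zero]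

theorem dbK_last : (dbK K).c (Fin.last n) = ta' := by simp [dbK]

theorem dbK_castSucc (a : Fin n) : (dbK K).c a.castSucc = od (K.c a) := by simp [dbK]

theorem wd_db (L : List (Fin n)) :
    (Even L.length → wd (dbK K) (L.map Fin.castSucc) = dg (wd K L)) ∧
    (¬ Even L.length → wd (dbK K) (L.map Fin.castSucc) = od (wd K L)) := by
  induction L with
  | nil => simp [dg_one]
  | cons a L ih =>
    have h1 : wd (dbK K) ((a :: L).map Fin.castSucc) =
        od (K.c a) * wd (dbK K) (L.map Fin.castSucc) := by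
      rw [List.map_cons, wd_cons, dbK_castSucc]
    rw [h1, wd_cons, List.length_cons, Nat.even_add_one]
    refine ⟨fun h => ?_, fun h => ?_⟩
    · rw [ih.2 h, od_mul]
    · rw [ih.1 (not_not.1 h), od_mul_dg]

theorem dg_mem {u : V →L[ℂ] V} (h : u ∈ W K) : dg u ∈ W (dbK K) := by
  induction h using Submodule.span_induction with
  | mem x hx =>
    obtain ⟨L, hL, rfl⟩ := hx
    rw [← (wd_db K L).1 hL]
    exact wd_mem_W _ (by rwa [List.length_map])
  | zero => rw [dg_zero]; exact zero_mem _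
  | add y z _ _ h1 h2 => rw [← dg_add]; exact add_mem h1 h2
  | smul r y _ h => rw [← dg_smul]; exact Submodule.smul_mem _ _ h

/-- `Q ⊕ 1` -/
def ex (Q : Matrix (Fin n) (Fin n) ℝ) : Matrix (Fin (n + 1)) (Fin (n + 1)) ℝ :=
  fun i j => Fin.lastCases (Fin.lastCases 1 (fun _ => 0) j)
    (fun i' => Fin.lastCases 0 (fun j' => Q i' j') j) i

variable {K} {Q : Matrix (Fin n) (Fin n) ℝ}

theorem ex_cc (i j : Fin n) : ex Q i.castSucc j.castSucc = Q i j := by simp [ex]
theorem ex_cl (i : Fin n) : ex Q i.castSucc (Fin.last n) = 0 := by simp [ex]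
theorem ex_lc (j : Fin n) : ex Q (Fin.last n) j.castSucc = 0 := by simp [ex]
theorem ex_ll : ex Q (Fin.last n) (Fin.last n) = 1 := by simp [ex]

theorem ex_mulVec_castSucc (v : E (n + 1)) (i : Fin n) :
    (ex Q *ᵥ v) i.castSucc = (Q *ᵥ fun j => v j.castSucc) i := by
  simp only [Matrix.mulVec, dotProduct, Fin.sum_univ_castSucc, ex_cc, ex_cl, zero_mul, add_zero]

theorem ex_mulVec_last (v : E (n + 1)) : (ex Q *ᵥ v) (Fin.last n) = v (Fin.last n) := by
  simp only [Matrix.mulVec, dotProduct, Fin.sum_univ_castSucc, ex_lc, ex_ll, zero_mul,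
    Finset.sum_const_zero, zero_add, one_mul]

theorem cv_db (v : E (n + 1)) :
    cv (dbK K) v = od (cv K fun j => v j.castSucc) + v (Fin.last n) • ta' := by
  have h1 : ∀ (m : ℕ) {V' : Type} [NormedAddCommGroup V'] [InnerProductSpace ℂ V']
    (K' : Cliff m V') (w : E m), cv K' w = ∑ a, w a • K'.c a := fun _ _ _ _ _ _ => rfl
  rw [h1, h1, Fin.sum_univ_castSucc, dbK_last, od_sum]
  simp only [dbK_castSucc, od_smul]

theorem Lf_dg {u : V →L[ℂ] V} (h : Lf K Q u) : Lf (dbK K) (ex Q) (dg u) where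
  mem := dg_mem K h.mem
  unit v w := by
    change ⟪u v.fst + 0, u w.fst + 0⟫_ℂ + ⟪0 + u v.snd, 0 + u w.snd⟫_ℂ =
      ⟪v.fst, w.fst⟫_ℂ + ⟪v.snd, w.snd⟫_ℂ
    rw [add_zero, add_zero, zero_add, zero_add, h.unit, h.unit]
  lift v := by
    rw [cv_db, cv_db, ex_mulVec_last, mul_add, add_mul, dg_mul_od, od_mul_dg, h.lift]
    congr 1
    · congr 3
      exact funext fun i => (ex_mulVec_castSucc v i).symm
    · rw [mul_smul_comm, smul_mul_assoc, dg_ta]

end cliff

end Vale.Agent.P223.H887
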