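import Vale.Agent.P223.H441.Sg
import Vale.Agent.P223.H887.F2A

/-! Global lifts of rotations on `ℝ^m`. -/

namespace Vale.Agent.P223.H887

open Vale.Agent.P223.H566 Vale.Agent.P223.H Vale.Agent.P223.H441
open scoped ContDiff Topology Matrix InnerProductSpace

section lift
variable {m : ℕ} {V : Type} [NormedAddCommGroup V] [InnerProductSpace ℂ V] [CompleteSpace V]
  [FiniteDimensional ℂ V] [Nontrivial V] {K : Cliff m V}

theorem lift_glob {R : E m → Matrix (Fin m) (Fin m) ℝ}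
    (hR : ∀ a b, ContDiff ℝ ∞ fun z => R z a b) (ho : ∀ z, (R z)ᵀ * R z = 1)
    (hd : ∀ z, (R z).det = 1) :
    ∃ s : E m → V →L[ℂ] V, ContDiff ℝ ∞ s ∧ ∀ z, Lf K (R z) (s z) := by
  have loc : ∀ y₀ : E m, ∃ (N : Set (E m)) (r : E m → V →L[ℂ] V), IsOpen N ∧ y₀ ∈ N ∧
      ∀ z ∈ N, Lf K (R z) (r z) ∧ ContDiffAt ℝ ∞ r z := by
    intro y₀
    obtain ⟨u, hu⟩ := Lf.exists (K := K) (ho y₀) (hd y₀)
    obtain ⟨r, hr⟩ := Lf_local K (R := R) (y₀ := y₀)
      (Filter.Eventually.of_forall fun z a b => (hR a b).contDiffAt)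
      (Filter.Eventually.of_forall ho) hu
    obtain ⟨N, hN, hNo, hyN⟩ := mem_nhds_iff.1 hr
    exact ⟨N, r, hNo, hyN, fun z hz => hN hz⟩
  choose N r hN hyN hr using loc
  have hσ : ∀ a b : E m, ∀ z ∈ N a ∩ N b, ∃ ε : ℤˣ, r b z = (ε : ℤ) • r a z := by
    intro a b z hz
    exact (hr a z hz.1).1.uniq (hr b z hz.2).1 (mul_eq_one_comm.1 (ho z))
  classical
  let σ : E m → E m → E m → ℤˣ := fun a b z =>
    if h : z ∈ N a ∩ N b then (hσ a b z h).choose else 1
  have hσ' : ∀ a b : E m, ∀ z ∈ N a ∩ N b, r b z = (σ a b z : ℤ) • r a z := by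
    intro a b z hz
    have h1 : σ a b z = (hσ a b z hz).choose := dif_pos hz
    rw [h1]
    exact (hσ a b z hz).choose_spec
  obtain ⟨ε, h1, h2⟩ := coc_triv N hN (fun y => ⟨y, hyN y⟩) σ (fun a b z hz =>
      cont_sign (A := r a) (B := r b) (hr a z hz.1).2.continuousAt.continuousWithinAt
        (hr b z hz.2).2.continuousAt.continuousWithinAt (hσ' a b) hz (hr a z hz.1).1.ne_zero)
    (fun a b d z ha hb hd => by
      have e1 := hσ' a b z ⟨ha, hb⟩
      have e2 := hσ' b d z ⟨hb, hd⟩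
      have e3 := hσ' a d z ⟨ha, hd⟩
      rw [e1, zs_zs, e3] at e2
      exact (zs_eq (hr a z ha).1.ne_zero e2).symm)
  have key : ∀ a z, z ∈ N a → (ε z z : ℤ) • r z z = (ε a z : ℤ) • r a z := by
    intro a z ha
    have e1 := h2 a z z ha (hyN z)
    have e2 := hσ' a z z ⟨ha, hyN z⟩
    rw [e1, e2, zs_zs]
    congr 2
    calc σ a z z * ε a z * σ a z z = (σ a z z * σ a z z) * ε a z := by
          simp only [mul_comm, mul_left_comm]
      _ = ε a z := by rw [Int.units_mul_self, one_mul]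
  refine ⟨fun z => (ε z z : ℤ) • r z z, contDiff_iff_contDiffAt.2 fun y => ?_, fun z =>
    (hr z z (hyN z)).1.sgn _⟩
  have h3 : ∀ᶠ z in 𝓝 y, z ∈ N y := (hN y).mem_nhds (hyN y)
  have h5 : ∀ᶠ z in 𝓝 y, ε y z = ε y y := by
    have := ((h1 y).continuousAt ((hN y).mem_nhds (hyN y)))
    exact this.eventually_mem (isOpen_discrete {ε y y} |>.mem_nhds rfl)
  have h6 : (fun z => (ε z z : ℤ) • r z z) =ᶠ[𝓝 y] fun z => (ε y y : ℤ) • r y z := by
    filter_upwards [h3, h5] with z hz1 hz3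
    rw [key y z hz1, hz3]
  refine ContDiffAt.congr_of_eventuallyEq ?_ h6
  exact (hr y y (hyN y)).2.const_smul _

end lift

section lift'
variable {n : ℕ} {V : Type} [NormedAddCommGroup V] [InnerProductSpace ℂ V] [CompleteSpace V]
  [FiniteDimensional ℂ V] [Nontrivial V] {K : Cliff (n + 1) V}

theorem lift_glob' {R : E n → Matrix (Fin (n + 1)) (Fin (n + 1)) ℝ}
    (hR : ∀ a b, ContDiff ℝ ∞ fun z => R z a b) (ho : ∀ z, (R z)ᵀ * R z = 1)
    (hd : ∀ z, (R z).det = 1) :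
    ∃ s : E n → V →L[ℂ] V, ContDiff ℝ ∞ s ∧ ∀ z, Lf K (R z) (s z) := by
  have hp : ContDiff ℝ ∞ fun z : E (n + 1) => (fun i : Fin n => z i.castSucc : E n) :=
    contDiff_pi.2 fun i => contDiff_apply ℝ ℝ i.castSucc
  have hi : ContDiff ℝ ∞ fun y : E n => (Fin.snoc y (0 : ℝ) : E (n + 1)) := by
    refine contDiff_pi.2 fun i => ?_
    refine Fin.lastCases ?_ (fun j => ?_) i
    · simp only [Fin.snoc_last]; exact contDiff_const
    · simp only [Fin.snoc_castSucc]; exact contDiff_apply ℝ ℝ j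
  obtain ⟨s, hs, hl⟩ := lift_glob (K := K) (R := fun z => R fun i => z i.castSucc)
    (fun a b => (hR a b).comp hp) (fun z => ho _) (fun z => hd _)
  refine ⟨fun y => s (Fin.snoc y 0), hs.comp hi, fun y => ?_⟩
  have := hl (Fin.snoc y 0)
  simpa only [Fin.snoc_castSucc] using this

end lift'

end Vale.Agent.P223.H887
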