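import Vale.Agent.P223.H66.S2
import Vale.Agent.P223.H441.XSp
import Vale.Agent.P223.H887.F2B

/-! Moving frames of the light cone. -/

namespace Vale.Agent.P223.H887

open Vale.Agent.P223.H566 Vale.Agent.P223.H Vale.Agent.P223.X Vale.Agent.P223.H441
  Vale.Agent.P223.H66
open scoped ContDiff Topology Matrix InnerProductSpace

section
variable {n : ℕ} {M X Γ I : Type} [TopologicalSpace M] [TopologicalSpace X] [Group Γ]
    [MulAction Γ X] {C : Cov n M X Γ I} {G : I → E n → Matrix (Fin n) (Fin n) ℝ}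
    {D : Fin (n + 1) → X → ℝ} {t : X → ℝ}

/-- the unit vector `D / t` -/
noncomputable def uu (C : Cov n M X Γ I) (D : Fin (n + 1) → X → ℝ) (t : X → ℝ) (a : Γ × I)
    (y : E n) (k : Fin (n + 1)) : ℝ := C.rep (D k) a.1 a.2 y / C.rep t a.1 a.2 y

/-- `t d(D / t)` -/
noncomputable def Wm (C : Cov n M X Γ I) (D : Fin (n + 1) → X → ℝ) (t : X → ℝ) (a : Γ × I)
    (y : E n) : Matrix (Fin (n + 1)) (Fin n) ℝ := fun k l =>
  Vale.Agent.P223.H.pd l (C.rep (D k) a.1 a.2) y -
    uu C D t a y k * Vale.Agent.P223.H.pd l (C.rep t a.1 a.2) y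

/-- the frame `(t du, u)` -/
noncomputable def OO (C : Cov n M X Γ I) (D : Fin (n + 1) → X → ℝ) (t : X → ℝ)
    (β : I → E n → Matrix (Fin n) (Fin n) ℝ) (a : Γ × I) (y : E n) :
    Matrix (Fin (n + 1)) (Fin (n + 1)) ℝ := fun k j =>
  Fin.lastCases (uu C D t a y k) (fun b => (Wm C D t a y * (β a.2 y)ᵀ) k b) j

variable (h : DevX C G D t)
include h

theorem t_pos (a : Γ × I) (y : E n) : 0 < C.rep t a.1 a.2 y := h.pos _

theorem uu_sq (a : Γ × I) (y : E n) : ∑ k, uu C D t a y k * uu C D t a y k = 1 := by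
  have h1 := h.null (a.1 • C.ψ a.2 y)
  have h2 := (t_pos h a y).ne'
  unfold uu
  unfold Cov.rep at h2 ⊢
  have : ∑ k, D k (a.1 • C.ψ a.2 y) / t (a.1 • C.ψ a.2 y) *
      (D k (a.1 • C.ψ a.2 y) / t (a.1 • C.ψ a.2 y)) =
      (∑ k, D k (a.1 • C.ψ a.2 y) ^ 2) / t (a.1 • C.ψ a.2 y) ^ 2 := by
    rw [Finset.sum_div]
    exact Finset.sum_congr rfl fun k _ => by ring
  rw [this, h1, div_self (pow_ne_zero 2 h2)]

theorem uu_pd (a : Γ × I) (y : E n) (l : Fin n) :
    ∑ k, uu C D t a y k * Vale.Agent.P223.H.pd l (C.rep (D k) a.1 a.2) y =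
      Vale.Agent.P223.H.pd l (C.rep t a.1 a.2) y := by
  have hD : ∀ k, DifferentiableAt ℝ (C.rep (D k) a.1 a.2) y := fun k =>
    ((h.smooth k a.1 a.2).differentiable (by simp)) y
  have hT : DifferentiableAt ℝ (C.rep t a.1 a.2) y :=
    ((h.smooth_t a.1 a.2).differentiable (by simp)) y
  have h1 : (fun y => ∑ k, C.rep (D k) a.1 a.2 y * C.rep (D k) a.1 a.2 y) =
      fun y => C.rep t a.1 a.2 y * C.rep t a.1 a.2 y := by
    funext z
    have := h.null (a.1 • C.ψ a.2 z)
    unfold Cov.rep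
    rw [← pow_two, ← this]
    exact Finset.sum_congr rfl fun k _ => by ring
  have h2 := congrArg (fun f => Vale.Agent.P223.H.pd l f y) h1
  rw [Bridge.pd_sum (f := fun k z => C.rep (D k) a.1 a.2 z * C.rep (D k) a.1 a.2 z)
    (fun k _ => (hD k).fun_mul (hD k)), Bridge.pd_mul hT hT] at h2
  simp only [Bridge.pd_mul (hD _) (hD _)] at h2
  have h3 := (t_pos h a y).ne'
  have h4 : ∑ k, uu C D t a y k * Vale.Agent.P223.H.pd l (C.rep (D k) a.1 a.2) y =
      (∑ k, (Vale.Agent.P223.H.pd l (C.rep (D k) a.1 a.2) y * C.rep (D k) a.1 a.2 y +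
        C.rep (D k) a.1 a.2 y * Vale.Agent.P223.H.pd l (C.rep (D k) a.1 a.2) y)) /
          (2 * C.rep t a.1 a.2 y) := by
    rw [Finset.sum_div]
    refine Finset.sum_congr rfl fun k _ => ?_
    unfold uu
    field_simp
    ring
  rw [h4, h2]
  field_simp
  ring

theorem Wm_T (a : Γ × I) (y : E n) : (Wm C D t a y)ᵀ * Wm C D t a y = G a.2 y := by
  ext l m
  rw [Matrix.mul_apply, h.iso a.1 a.2 y l m]
  simp only [Matrix.transpose_apply, Wm]
  have e1 := uu_pd h a y l
  have e2 := uu_pd h a y m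
  have e3 := uu_sq h a y
  set p := Vale.Agent.P223.H.pd l (C.rep t a.1 a.2) y
  set q := Vale.Agent.P223.H.pd m (C.rep t a.1 a.2) y
  have e4 : ∑ k, (Vale.Agent.P223.H.pd l (C.rep (D k) a.1 a.2) y - uu C D t a y k * p) *
      (Vale.Agent.P223.H.pd m (C.rep (D k) a.1 a.2) y - uu C D t a y k * q) =
      ∑ k, Vale.Agent.P223.H.pd l (C.rep (D k) a.1 a.2) y *
        Vale.Agent.P223.H.pd m (C.rep (D k) a.1 a.2) y -
      q * (∑ k, uu C D t a y k * Vale.Agent.P223.H.pd l (C.rep (D k) a.1 a.2) y) -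
      p * (∑ k, uu C D t a y k * Vale.Agent.P223.H.pd m (C.rep (D k) a.1 a.2) y) +
      p * q * ∑ k, uu C D t a y k * uu C D t a y k := by
    simp only [Finset.mul_sum, ← Finset.sum_sub_distrib, ← Finset.sum_add_distrib]
    exact Finset.sum_congr rfl fun k _ => by ring
  rw [e4, e1, e2, e3]
  ring

theorem uu_Wm (a : Γ × I) (y : E n) (l : Fin n) : ∑ k, uu C D t a y k * Wm C D t a y k l = 0 := by
  simp only [Wm, mul_sub, Finset.sum_sub_distrib]
  rw [uu_pd h]
  have : ∑ k, uu C D t a y k * (uu C D t a y k * Vale.Agent.P223.H.pd l (C.rep t a.1 a.2) y) =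
      (∑ k, uu C D t a y k * uu C D t a y k) * Vale.Agent.P223.H.pd l (C.rep t a.1 a.2) y := by
    rw [Finset.sum_mul]
    exact Finset.sum_congr rfl fun k _ => by ring
  rw [this, uu_sq h, one_mul, sub_self]

variable {β : I → E n → Matrix (Fin n) (Fin n) ℝ} (hG : MetX C G) (hfr : ∀ i, Fr (G i) (β i))

omit h in
theorem OO_last (a : Γ × I) (y : E n) (k : Fin (n + 1)) :
    OO C D t β a y k (Fin.last n) = uu C D t a y k := by simp [OO]

omit h in
theorem OO_cast (a : Γ × I) (y : E n) (k : Fin (n + 1)) (b : Fin n) :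
    OO C D t β a y k b.castSucc = (Wm C D t a y * (β a.2 y)ᵀ) k b := by simp [OO]

include hfr in
theorem OO_orth (a : Γ × I) (y : E n) : (OO C D t β a y)ᵀ * OO C D t β a y = 1 := by
  have h1 : (Wm C D t a y * (β a.2 y)ᵀ)ᵀ * (Wm C D t a y * (β a.2 y)ᵀ) = 1 := by
    rw [Matrix.transpose_mul, Matrix.transpose_transpose, ← (hfr a.2).orth y, ← Wm_T h a y]
    simp only [Matrix.mul_assoc]
  have h2 : ∀ b, ∑ k, uu C D t a y k * (Wm C D t a y * (β a.2 y)ᵀ) k b = 0 := by
    intro b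
    simp only [Matrix.mul_apply, Finset.mul_sum]
    rw [Finset.sum_comm]
    refine Finset.sum_eq_zero fun l _ => ?_
    have : ∑ k, uu C D t a y k * (Wm C D t a y k l * (β a.2 y)ᵀ l b) =
        (∑ k, uu C D t a y k * Wm C D t a y k l) * (β a.2 y)ᵀ l b := by
      rw [Finset.sum_mul]
      exact Finset.sum_congr rfl fun k _ => by ring
    rw [this, uu_Wm h, zero_mul]
  ext i j
  rw [Matrix.mul_apply]
  simp only [Matrix.transpose_apply]
  refine Fin.lastCases ?_ (fun i => ?_) i <;> refine Fin.lastCases ?_ (fun j => ?_) j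
  · simp only [OO_last, Matrix.one_apply_eq]
    exact uu_sq h a y
  · simp only [OO_last, OO_cast]
    rw [h2, Matrix.one_apply_ne (Fin.castSucc_ne_last j).symm]
  · simp only [OO_last, OO_cast]
    rw [Matrix.one_apply_ne (Fin.castSucc_ne_last i), ← h2 i]
    exact Finset.sum_congr rfl fun k _ => mul_comm _ _
  · simp only [OO_cast]
    have := congrFun (congrFun h1 i) j
    rw [Matrix.mul_apply] at this
    simp only [Matrix.transpose_apply] at this
    rw [this]
    by_cases hij : i = j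
    · rw [hij, Matrix.one_apply_eq, Matrix.one_apply_eq]
    · rw [Matrix.one_apply_ne hij,
        Matrix.one_apply_ne fun h' => hij (Fin.castSucc_injective _ h')]

omit h in
theorem uu_tt {a b : Γ × I} {y : E n} (hy : y ∈ dm C a b) (k : Fin (n + 1)) :
    uu C D t b (tt C a b y) k = uu C D t a y k := by
  have h1 := pt_tt hy
  unfold pt at h1
  unfold uu Cov.rep
  rw [h1]

theorem Wm_tt {a b : Γ × I} {y : E n} (hy : y ∈ dm C a b) :
    Wm C D t a y = Wm C D t b (tt C a b y) * jac (tt C a b) y := by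
  have key : ∀ f : X → ℝ, C.Ck ∞ f → ∀ l, Vale.Agent.P223.H.pd l (C.rep f a.1 a.2) y =
      ∑ m, Vale.Agent.P223.H.pd m (C.rep f b.1 b.2) (tt C a b y) * jac (tt C a b) y m l := by
    intro f hf l
    have e1 := Bas2.rep_eventually (C := C) f (i := a.2) (j := b.2) (γ := a.1) (γ' := b.1) hy
    have e2 : Vale.Agent.P223.H.pd l (C.rep f a.1 a.2) y =
        Vale.Agent.P223.H.pd l (fun z => C.rep f b.1 b.2 (tt C a b z)) y := by
      unfold Vale.Agent.P223.H.pd
      rw [e1.fderiv_eq]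
      rfl
    rw [e2, Bridge.pd_eq, P223.pd_comp (contDiffAt_tt hy)
      (((hf b.1 b.2).differentiable (by simp)) _)]
    rfl
  ext k l
  rw [Matrix.mul_apply]
  simp only [Wm]
  rw [key _ (h.smooth k), key _ h.smooth_t, uu_tt hy, Finset.mul_sum, ← Finset.sum_sub_distrib]
  exact Finset.sum_congr rfl fun m _ => by ring

include hG hfr in
theorem OO_tt {a b : Γ × I} {y : E n} (hy : y ∈ dm C a b) :
    OO C D t β a y = OO C D t β b (tt C a b y) * ex (Rm (G b.2) (β a.2) (β b.2) (tt C a b) y) := by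
  have h1 := RM_eq (J := jac (tt C a b) y) (b₁ := β a.2 y) (symm_of_posDef (hG.pos b.2 (tt C a b y)))
    ((hfr b.2).orth (tt C a b y))
  have h2 : Wm C D t a y * (β a.2 y)ᵀ = Wm C D t b (tt C a b y) * (β b.2 (tt C a b y))ᵀ *
      Rm (G b.2) (β a.2) (β b.2) (tt C a b) y := by
    rw [Wm_tt h hy, Matrix.mul_assoc, ← h1, Matrix.mul_assoc]
    rfl
  ext k j
  rw [Matrix.mul_apply, Fin.sum_univ_castSucc, OO_last]
  simp only [OO_cast]
  refine Fin.lastCases ?_ (fun j => ?_) j
  · simp only [ex_cl, ex_ll, mul_zero, Finset.sum_const_zero, zero_add, mul_one, OO_last]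
    exact (uu_tt hy k).symm
  · simp only [ex_cc, ex_lc, mul_zero, add_zero, OO_cast]
    rw [h2, Matrix.mul_apply]

include hfr in
theorem OO_smooth (a : Γ × I) (k j : Fin (n + 1)) : ContDiff ℝ ∞ fun y => OO C D t β a y k j := by
  have hu : ∀ k, ContDiff ℝ ∞ fun y => uu C D t a y k := fun k => by
    unfold uu
    exact (h.smooth k a.1 a.2).div (h.smooth_t a.1 a.2) fun y => (t_pos h a y).ne'
  refine Fin.lastCases ?_ (fun j => ?_) j
  · simp only [OO_last]
    exact hu k
  · simp only [OO_cast, Matrix.mul_apply, Matrix.transpose_apply, Wm]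
    refine ContDiff.sum fun l _ => ContDiff.mul (ContDiff.sub ?_ ((hu k).mul ?_))
      ((hfr a.2).smooth j l)
    · exact Bridge.contDiff_pd (h.smooth k a.1 a.2) (by simp) l
    · exact Bridge.contDiff_pd (h.smooth_t a.1 a.2) (by simp) l

end

end Vale.Agent.P223.H887
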