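import Vale.Agent.P223.H441.XSp4
import Vale.Agent.P223.H66.S3
import Vale.Agent.P223.H887.F2C

/-! Spin structure of hypersurfaces of the light cone. -/

namespace Vale.Agent.P223.H887

open Vale.Agent.P223.H566 Vale.Agent.P223.H Vale.Agent.P223.X Vale.Agent.P223.H441
  Vale.Agent.P223.H66
open scoped ContDiff Topology Matrix InnerProductSpace

theorem ex_det {n : ℕ} (Q : Matrix (Fin n) (Fin n) ℝ) : (ex Q).det = Q.det := by
  rw [Matrix.det_succ_column (ex Q) (Fin.last n), Fin.sum_univ_castSucc]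
  simp only [ex_cl, ex_ll, mul_zero, zero_mul, Finset.sum_const_zero, zero_add, mul_one]
  rw [← two_mul, pow_mul, neg_one_sq, one_pow, one_mul]
  congr 1
  ext i j
  simp only [Matrix.submatrix_apply, Fin.succAbove_last, ex_cc]

theorem ex_T {n : ℕ} (Q : Matrix (Fin n) (Fin n) ℝ) : (ex Q)ᵀ = ex Qᵀ := by
  ext i j
  rw [Matrix.transpose_apply]
  refine Fin.lastCases ?_ (fun i => ?_) i <;> refine Fin.lastCases ?_ (fun j => ?_) j
  · rw [ex_ll, ex_ll]
  · rw [ex_cl, ex_lc]
  · rw [ex_lc, ex_cl]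
  · rw [ex_cc, ex_cc, Matrix.transpose_apply]

theorem ex_mul {n : ℕ} (Q Q' : Matrix (Fin n) (Fin n) ℝ) : ex Q * ex Q' = ex (Q * Q') := by
  ext i j
  rw [Matrix.mul_apply, Fin.sum_univ_castSucc]
  refine Fin.lastCases ?_ (fun i => ?_) i <;> refine Fin.lastCases ?_ (fun j => ?_) j
  · simp [ex_ll, ex_lc]
  · simp [ex_ll, ex_lc]
  · simp [ex_ll, ex_cl]
  · simp [ex_cc, ex_cl, Matrix.mul_apply]

theorem ex_one {n : ℕ} : ex (1 : Matrix (Fin n) (Fin n) ℝ) = 1 := by
  ext i j
  refine Fin.lastCases ?_ (fun i => ?_) i <;> refine Fin.lastCases ?_ (fun j => ?_) j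
  · rw [ex_ll, Matrix.one_apply_eq]
  · rw [ex_lc, Matrix.one_apply_ne (Fin.castSucc_ne_last j).symm]
  · rw [ex_cl, Matrix.one_apply_ne (Fin.castSucc_ne_last i)]
  · rw [ex_cc]
    by_cases hij : i = j
    · rw [hij, Matrix.one_apply_eq, Matrix.one_apply_eq]
    · rw [Matrix.one_apply_ne hij,
        Matrix.one_apply_ne fun h' => hij (Fin.castSucc_injective _ h')]

section
variable {n : ℕ} {M X Γ I : Type} [TopologicalSpace M] [TopologicalSpace X] [Group Γ]
    [MulAction Γ X] {C : Cov n M X Γ I} {G : I → E n → Matrix (Fin n) (Fin n) ℝ}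
    {D : Fin (n + 1) → X → ℝ} {t : X → ℝ} (h : DevX C G D t)
    {β : I → E n → Matrix (Fin n) (Fin n) ℝ} (hG : MetX C G) (hfr : ∀ i, Fr (G i) (β i))

include hG hfr

theorem Rm_o {a b : Γ × I} {y : E n} (hy : y ∈ dm C a b) :
    (Rm (G b.2) (β a.2) (β b.2) (tt C a b) y)ᵀ * Rm (G b.2) (β a.2) (β b.2) (tt C a b) y = 1 :=
  Rm_orth (hG.pos b.2) (hfr a.2).orth (hfr b.2).orth (Bas2.compat hG hy)

theorem Rm_d {a b : Γ × I} {y : E n} (hy : y ∈ dm C a b) :
    (Rm (G b.2) (β a.2) (β b.2) (tt C a b) y).det = 1 :=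
  RM_det ((hfr b.2).orth _) ((hfr b.2).pos _) ((hfr a.2).pos y) (Bas2.det_jac_pos hy)
    (Rm_o hG hfr hy)

include h

theorem OO_det [PreconnectedSpace X] : ∃ ε : ℝ, ε * ε = 1 ∧ ∀ a y, (OO C D t β a y).det = ε := by
  choose ch hch using pt_cover (C := C)
  have hsq : ∀ a y, (OO C D t β a y).det * (OO C D t β a y).det = 1 := by
    intro a y
    have := congrArg Matrix.det (OO_orth h hfr a y)
    rwa [Matrix.det_mul, Matrix.det_transpose, Matrix.det_one] at this
  have e1 : ∀ a b y y', pt C a y = pt C b y' → (OO C D t β a y).det = (OO C D t β b y').det := by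
    intro a b y y' hyy
    obtain ⟨hy, rfl⟩ := mem_dm hyy
    rw [OO_tt h hG hfr hy, Matrix.det_mul, ex_det, Rm_d hG hfr hy, mul_one]
  set f : X → ℝ := fun x => (OO C D t β (ch x) (cc C (ch x) x)).det with hf
  have e2 : ∀ a y, f (pt C a y) = (OO C D t β a y).det := by
    intro a y
    refine e1 _ _ _ _ ?_
    exact pt_cc (hch _)
  have hcont : Continuous f := by
    rw [continuous_iff_continuousAt]
    intro x
    obtain ⟨a, y, rfl⟩ := pt_cover (C := C) x
    have e3 : ContinuousAt (fun x => (OO C D t β a (cc C a x)).det) (pt C a y) := by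
      refine cont_cc (f := fun y => (OO C D t β a y).det) ?_
      refine Continuous.continuousAt ?_
      refine Continuous.matrix_det ?_
      exact continuous_matrix fun i j => (OO_smooth h hfr a i j).continuous
    refine e3.congr ?_
    filter_upwards [(pt_emb a).isOpen_range.mem_nhds ⟨y, rfl⟩] with x hx
    obtain ⟨z, rfl⟩ := hx
    rw [cc_pt, e2]
  have e4 := (isPreconnected_univ (α := X)).eq_one_or_eq_neg_one_of_sq_eq hcont.continuousOn
    (fun x _ => by
      obtain ⟨a, y, rfl⟩ := pt_cover (C := C) x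
      change f (pt C a y) ^ 2 = 1
      rw [e2, pow_two, hsq])
  rcases e4 with e4 | e4
  · exact ⟨1, one_mul 1, fun a y => by rw [← e2]; exact e4 (Set.mem_univ _)⟩
  · exact ⟨-1, by norm_num, fun a y => by rw [← e2]; exact e4 (Set.mem_univ _)⟩

variable {V : Type} [NormedAddCommGroup V] [InnerProductSpace ℂ V] [CompleteSpace V]
  [FiniteDimensional ℂ V] [Nontrivial V] (K : Cliff n V)

theorem exists_Sp0 [PreconnectedSpace X] : Nonempty (Sp0 C G K) := by
  obtain ⟨ε, hε, hdet⟩ := OO_det h hG hfr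
  set P : Matrix (Fin (n + 1)) (Fin (n + 1)) ℝ := Matrix.diagonal fun k => if k = 0 then ε else 1
    with hP
  have hPP : Pᵀ * P = 1 := by
    rw [hP, Matrix.diagonal_transpose, Matrix.diagonal_mul_diagonal, ← Matrix.diagonal_one]
    congr 1
    funext k
    by_cases hk : k = 0
    · simp [hk, hε]
    · simp [hk]
  have hPd : P.det = ε := by
    rw [hP, Matrix.det_diagonal, Finset.prod_ite_eq']
    simp
  have hRs : ∀ a i j, ContDiff ℝ ∞ fun y => (P * OO C D t β a y) i j := by
    intro a i j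
    simp only [Matrix.mul_apply]
    exact ContDiff.sum fun k _ => contDiff_const.mul (OO_smooth h hfr a k j)
  have hRo : ∀ a y, (P * OO C D t β a y)ᵀ * (P * OO C D t β a y) = 1 := by
    intro a y
    rw [Matrix.transpose_mul, Matrix.mul_assoc, ← Matrix.mul_assoc _ P, hPP, Matrix.one_mul,
      OO_orth h hfr]
  have hRd : ∀ a y, (P * OO C D t β a y).det = 1 := by
    intro a y
    rw [Matrix.det_mul, hPd, hdet, hε]
  have : Nontrivial (Db V) := by
    obtain ⟨v, hv⟩ := exists_ne (0 : V)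
    exact ⟨WithLp.toLp 2 (v, 0), 0, fun h => hv (congrArg (fun z : Db V => z.fst) h)⟩
  have : FiniteDimensional ℂ (Db V) :=
    (WithLp.linearEquiv 2 ℂ (V × V)).symm.finiteDimensional
  choose s hs hl using fun a => lift_glob' (K := dbK K) (hRs a) (hRo a) (hRd a)
  set Tt : Γ × I → Γ × I → E n → Db V →L[ℂ] Db V := fun a b y =>
    star (s b (tt C a b y)) * s a y with hTt
  have hexo : ∀ a b, ∀ y ∈ dm C a b, ex (Rm (G b.2) (β a.2) (β b.2) (tt C a b) y) *
      (ex (Rm (G b.2) (β a.2) (β b.2) (tt C a b) y))ᵀ = 1 := by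
    intro a b y hy
    rw [ex_T, ex_mul, mul_eq_one_comm.1 (Rm_o hG hfr hy), ex_one]
  have hTl : ∀ a b, ∀ y ∈ dm C a b,
      Lf (dbK K) (ex (Rm (G b.2) (β a.2) (β b.2) (tt C a b) y)) (Tt a b y) := by
    intro a b y hy
    have h0 : P * OO C D t β b (tt C a b y) * (P * OO C D t β b (tt C a b y))ᵀ = 1 :=
      mul_eq_one_comm.1 (hRo b (tt C a b y))
    have h1 := ((hl b (tt C a b y)).inv h0).mul (hl a y)
    have h2 : (P * OO C D t β b (tt C a b y))ᵀ * (P * OO C D t β a y) =
        ex (Rm (G b.2) (β a.2) (β b.2) (tt C a b) y) := by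
      rw [OO_tt h hG hfr hy, ← Matrix.mul_assoc P, ← Matrix.mul_assoc, hRo, Matrix.one_mul]
    rw [h2] at h1
    exact h1
  have key : ∀ a b, ∀ y ∈ dm C a b,
      Lf K (Rm (G b.2) (β a.2) (β b.2) (tt C a b) y) (cpL (Tt a b y)) ∧
        dg (cpL (Tt a b y)) = Tt a b y := by
    intro a b y hy
    obtain ⟨u, hu⟩ := Lf.exists (K := K) (Rm_o hG hfr hy) (Rm_d hG hfr hy)
    obtain ⟨δ, hδ⟩ := (Lf_dg hu).uniq (hTl a b y hy) (hexo a b y hy)
    have h1 : (δ : ℤ) • dg u = dg ((δ : ℤ) • u) := by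
      rcases Int.units_eq_one_or δ with h2 | h2 <;> rw [h2]
      · simp
      · simpa using dg_neg u
    rw [hδ, h1, cpL_dg]
    exact ⟨hu.sgn δ, rfl⟩
  refine ⟨{ met := hG, β := β, fr := hfr, T := fun a b y => cpL (Tt a b y)
            smooth := fun a b y hy => ?_
            lf := fun a b y hy => (key a b y hy).1
            coc := fun a b d y hy hy' => ?_
            one := fun a y => ?_ }⟩
  · refine cd_cpL ?_
    exact (cd_star ((hs b).contDiffAt.comp y (contDiffAt_tt hy))).mul (hs a).contDiffAt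
  · have h1 := (key a b y hy).2
    have h2 := (key b d _ hy').2
    obtain ⟨hy3, e3⟩ := tt_tt hy hy'
    have h4 : Tt b d (tt C a b y) * Tt a b y = Tt a d y := by
      rw [hTt]
      dsimp only
      rw [e3, mul_assoc, ← mul_assoc (s b (tt C a b y)), (hl b (tt C a b y)).mul_star, one_mul]
    rw [← cpL_dg (cpL (Tt b d (tt C a b y)) * cpL (Tt a b y)), ← dg_mul, h1, h2, h4]
  · rw [hTt]
    dsimp only
    rw [(dm_self a y).2, (hl a y).star_mul, ← dg_one, cpL_dg]

end

/-- Simply connected coverings with a developing map are spin. -/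
theorem specF2 : SpecF2 := by
  intro n M X Γ I V _ _ _ _ _ _ _ _ _ _ _ C G K D t _ hG h G' hG'
  have : CompleteSpace V := FiniteDimensional.complete ℂ V
  rcases subsingleton_or_nontrivial V with hV | hV
  · choose β hfr using fun i => exists_frame (hG'.smooth i) (hG'.pos i)
    exact ⟨{ met := hG', β := β, fr := hfr, T := fun _ _ _ _ _ => 1, sg := fun _ _ => 1
             sg_sq := fun _ _ => one_mul 1
             smooth := fun _ _ _ _ => contDiffOn_const
             unit := fun _ _ _ _ _ _ _ _ => rfl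
             vol := fun _ _ _ _ _ _ => Subsingleton.elim _ _
             cliff := fun _ _ _ _ _ _ _ => Subsingleton.elim _ _
             conn := fun _ _ _ _ _ _ _ => Subsingleton.elim _ _
             coc := fun _ _ _ _ _ _ _ _ _ => Subsingleton.elim _ _
             one := fun _ _ _ => rfl
             equi := fun _ _ _ _ _ _ _ => Subsingleton.elim _ _ }⟩
  · choose β hfr using fun i => exists_frame (hG.smooth i) (hG.pos i)
    obtain ⟨S0⟩ := exists_Sp0 h hG hfr K
    obtain ⟨S1, -⟩ := exists_Sp1 S0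
    obtain ⟨S2⟩ := S1.change hG'
    exact ⟨S2.toSpX⟩

end Vale.Agent.P223.H887
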